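import Vale.Agent.P134.H134.Uncond
import Vale.Agent.P134.B331.Top
import Vale.Agent.P134.B331.Stm

open Vale.Agent.P134.B331
open scoped InnerProductSpace Laplacian

namespace Vale.Agent.Results.P134.FiveSymmetric

/-- (1) De Giorgi's conjecture in dimension five for every solution whose group of symmetries
(isometries `g` of `ℝ⁵` with `u ∘ g = u`) is not discrete, without any assumption on limits.
(2) Every bounded stable solution on `ℝ⁴` whose group of symmetries is not discrete is constant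
`±1` or one-dimensional. -/
theorem result :
    (∀ u : EuclideanSpace ℝ (Fin 5) → ℝ, ContDiff ℝ 2 u → (∀ x, Δ u x = u x ^ 3 - u x) →
      (∃ M : ℝ, ∀ x, |u x| ≤ M) → ∀ a : EuclideanSpace ℝ (Fin 5), (∀ x, 0 < fderiv ℝ u x a) →
      NonDiscreteSym u → ∃ (e : EuclideanSpace ℝ (Fin 5)) (c : ℝ), ‖e‖ = 1 ∧ 0 < ⟪e, a⟫_ℝ ∧
        ∀ x, u x = Real.tanh ((⟪e, x⟫_ℝ - c) / √2)) ∧
    (∀ u : EuclideanSpace ℝ (Fin 4) → ℝ, ContDiff ℝ 2 u → (∀ x, Δ u x = u x ^ 3 - u x) →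
      (∃ M : ℝ, ∀ x, |u x| ≤ M) → StableSol u → NonDiscreteSym u →
      (∀ x, u x = 1) ∨ (∀ x, u x = -1) ∨ ∃ (e : EuclideanSpace ℝ (Fin 4)) (c : ℝ), ‖e‖ = 1 ∧
        ∀ x, u x = Real.tanh ((⟪e, x⟫_ℝ - c) / √2)) :=
  ⟨fun _ hu heq hb _ ha hG =>
    Vale.Agent.P134.B331.M.five_top Vale.Agent.P134.H134.stS3
      (fun _ hu heq hb _ ha =>
        Vale.Agent.P134.H134.mono_of_S3 Vale.Agent.P134.H134.stS3 le_rfl hu heq hb ha)
      hu heq hb ha hG,
   fun _ hu heq hb hs hG =>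
    Vale.Agent.P134.B331.M.four_top Vale.Agent.P134.H134.stS3 hu heq hb hs hG⟩

end Vale.Agent.Results.P134.FiveSymmetric
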