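import Vale.Agent.P134.B331.Rec

open Module
open scoped InnerProductSpace Laplacian

namespace Vale.Agent.Results.P134.Recurrent

/-- De Giorgi's conjecture, in every dimension and without any assumption on limits, for solutions
which are uniformly recurrent along a linear subspace `V` of codimension at most three: for every
`ε > 0` and every ball there is `L` such that every ball of radius `L` centred on `V` contains a
translation `τ` under which `u` changes by at most `ε` on the given ball. -/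
theorem result (n : ℕ) (u : EuclideanSpace ℝ (Fin n) → ℝ) (hu : ContDiff ℝ 2 u)
    (heq : ∀ x, Δ u x = u x ^ 3 - u x) (hb : ∃ M : ℝ, ∀ x, |u x| ≤ M)
    (a : EuclideanSpace ℝ (Fin n)) (ha : ∀ x, 0 < fderiv ℝ u x a)
    (V : Submodule ℝ (EuclideanSpace ℝ (Fin n))) (hV : n ≤ finrank ℝ V + 3)
    (hrec : ∀ ε : ℝ, 0 < ε → ∀ R : ℝ, ∃ L : ℝ, ∀ v ∈ V, ∃ τ : EuclideanSpace ℝ (Fin n),
      ‖τ - v‖ ≤ L ∧ ∀ x, ‖x‖ ≤ R → |u (x + τ) - u x| ≤ ε) :
    ∃ (e : EuclideanSpace ℝ (Fin n)) (c : ℝ), ‖e‖ = 1 ∧ 0 < ⟪e, a⟫_ℝ ∧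
      ∀ x, u x = Real.tanh ((⟪e, x⟫_ℝ - c) / √2) :=
  have hb1 := Vale.Agent.P134.H765.abs_le_one_of_bdd hu heq hb
  Vale.Agent.P134.B331.M.tanh_of_one_dim hu heq hb1 ha
    (Vale.Agent.P134.rec_euclid hu heq hb1 ha hV hrec)

end Vale.Agent.Results.P134.Recurrent
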